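import Vale.Agent.P100h3.Main

open Filter Topology Laplacian InnerProductSpace

namespace Vale.Agent.Results.P100.WeightBelowMinusTwo

/-- `(u, v)` is a positive entire solution of the Hénon-Lane-Emden system on `ℝⁿ`:
`u, v` are continuous and positive on all of `ℝⁿ`, twice continuously differentiable
away from the origin, and satisfy `-Δ u = ‖x‖ ^ A * v ^ p`, `-Δ v = ‖x‖ ^ B * u ^ q`
at every `x ≠ 0`. -/
structure IsPositiveEntireSolution (n : ℕ) (p q A B : ℝ)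
    (u v : EuclideanSpace ℝ (Fin n) → ℝ) : Prop where
  cont_u : Continuous u
  cont_v : Continuous v
  smooth_u : ContDiffOn ℝ 2 u {0}ᶜ
  smooth_v : ContDiffOn ℝ 2 v {0}ᶜ
  pos_u : ∀ x, 0 < u x
  pos_v : ∀ x, 0 < v x
  eq_u : ∀ x, x ≠ 0 → - Δ u x = ‖x‖ ^ A * (v x) ^ p
  eq_v : ∀ x, x ≠ 0 → - Δ v x = ‖x‖ ^ B * (u x) ^ q

theorem one_sided {n : ℕ} (hn : 2 ≤ n) {p A : ℝ} (hA : A ≤ -2)
    {u v : EuclideanSpace ℝ (Fin n) → ℝ} (hu : Continuous u) (hv : Continuous v)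
    (hu2 : ContDiffOn ℝ 2 u {0}ᶜ) (hupos : ∀ x, 0 < u x) (hvpos : ∀ x, 0 < v x)
    (heq : ∀ x, x ≠ 0 → - Δ u x = ‖x‖ ^ A * (v x) ^ p) : False := by
  have hfr : Module.finrank ℝ (EuclideanSpace ℝ (Fin n)) = n := finrank_euclideanSpace_fin
  have hv0 : 0 < (v 0) ^ p := Real.rpow_pos_of_pos (hvpos 0) p
  have hcont : ContinuousAt (fun x => (v x) ^ p) (0 : EuclideanSpace ℝ (Fin n)) :=
    hv.continuousAt.rpow_const (Or.inl (hvpos 0).ne')
  have hnear : ∀ᶠ x in 𝓝 (0 : EuclideanSpace ℝ (Fin n)), (v 0) ^ p / 2 < (v x) ^ p :=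
    hcont.eventually (lt_mem_nhds (by linarith))
  obtain ⟨ρ₀, hρ₀, hball⟩ := Metric.eventually_nhds_iff.mp hnear
  set ρ : ℝ := min ρ₀ 1 with hρdef
  have hρ : 0 < ρ := lt_min hρ₀ one_pos
  refine Vale.Agent.P100h3.no_singular (by rw [hfr]; exact hn) hu hu2 hupos
    (c := (v 0) ^ p / 2) (ρ := ρ) (by positivity) hρ ?_
  intro x hx hxρ
  have hxn : 0 < ‖x‖ := norm_pos_iff.mpr hx
  have hx1 : ‖x‖ ≤ 1 := by
    have : ρ ≤ 1 := min_le_right _ _
    linarith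
  have hxρ₀ : dist x 0 < ρ₀ := by
    have : ρ ≤ ρ₀ := min_le_left _ _
    rw [dist_zero_right]; linarith
  have h1 : (v 0) ^ p / 2 ≤ (v x) ^ p := (hball hxρ₀).le
  have h2 : ‖x‖ ^ (-2 : ℝ) ≤ ‖x‖ ^ A := Real.rpow_le_rpow_of_exponent_ge hxn hx1 hA
  have h3 : ‖x‖ ^ (-2 : ℝ) = 1 / ‖x‖ ^ 2 := by
    rw [Real.rpow_neg hxn.le]
    norm_cast
    simp
  rw [heq x hx]
  have h4 : (v 0) ^ p / 2 / ‖x‖ ^ 2 = ‖x‖ ^ (-2 : ℝ) * ((v 0) ^ p / 2) := by
    rw [h3]; ring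
  rw [h4]
  exact mul_le_mul h2 h1 (by positivity) (by positivity)

/-- No positive entire solution of the Hénon-Lane-Emden system exists when `n = 2`,
or when `A ≤ -2`, or when `B ≤ -2`, for all `n ≥ 2`, all `p, q > 0` and all real `A, B`,
with no subcriticality assumption and no radial symmetry, decay or stability assumption. -/
theorem result (n : ℕ) (hn : 2 ≤ n) (p q A B : ℝ) (_hp : 0 < p) (_hq : 0 < q)
    (h : n = 2 ∨ A ≤ -2 ∨ B ≤ -2) (u v : EuclideanSpace ℝ (Fin n) → ℝ) :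
    ¬ IsPositiveEntireSolution n p q A B u v := by
  intro hs
  rcases h with h | h | h
  · refine Vale.Agent.P100h3.no_superharmonic_two (u := u) ?_ hs.cont_u hs.smooth_u hs.pos_u ?_
    · rw [finrank_euclideanSpace_fin]; exact h
    · intro x hx
      have h1 := hs.eq_u x hx
      have h2 : 0 < ‖x‖ ^ A * (v x) ^ p :=
        mul_pos (Real.rpow_pos_of_pos (norm_pos_iff.mpr hx) A)
          (Real.rpow_pos_of_pos (hs.pos_v x) p)
      linarith
  · exact one_sided hn h hs.cont_u hs.cont_v hs.smooth_u hs.pos_u hs.pos_v hs.eq_u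
  · exact one_sided hn h hs.cont_v hs.cont_u hs.smooth_v hs.pos_v hs.pos_u hs.eq_v

end Vale.Agent.Results.P100.WeightBelowMinusTwo
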