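import Vale.Agent.P100h3.OdeMain
import Vale.Agent.P100h3.RadialLap
import Vale.Agent.Results.P100.WeightBelowMinusTwo

open Filter Topology Laplacian InnerProductSpace

namespace Vale.Agent.Results.P100.ARadialAllWeights

open Vale.Agent.Results.P100.WeightBelowMinusTwo

/-- Radial solutions are not subcritical when `n ≥ 3`, `A, B > -2`. -/
theorem radial_not_subcritical {n : ℕ} (hn : 3 ≤ n) {p q A B : ℝ} (hp : 0 < p) (hq : 0 < q)
    (hA : -2 < A) (hB : -2 < B) {u v : EuclideanSpace ℝ (Fin n) → ℝ}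
    (hs : IsPositiveEntireSolution n p q A B u v)
    (hrad : ∀ x y, ‖x‖ = ‖y‖ → u x = u y ∧ v x = v y)
    (hsub : (n : ℝ) - 2 < ((n : ℝ) + A) / (p + 1) + ((n : ℝ) + B) / (q + 1)) : False := by
  have hfr : Module.finrank ℝ (EuclideanSpace ℝ (Fin n)) = n := finrank_euclideanSpace_fin
  have hN : (2 : ℝ) < (n : ℝ) := by
    have : (3 : ℝ) ≤ (n : ℝ) := by exact_mod_cast hn
    linarith
  have hpos_fr : 0 < Module.finrank ℝ (EuclideanSpace ℝ (Fin n)) := by omega
  let i₀ : Fin (Module.finrank ℝ (EuclideanSpace ℝ (Fin n))) := ⟨0, hpos_fr⟩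
  obtain ⟨e, he⟩ : ∃ e : EuclideanSpace ℝ (Fin n), ‖e‖ = 1 :=
    ⟨stdOrthonormalBasis ℝ (EuclideanSpace ℝ (Fin n)) i₀,
      (stdOrthonormalBasis ℝ (EuclideanSpace ℝ (Fin n))).orthonormal.1 i₀⟩
  have hnorm : ∀ r : ℝ, 0 ≤ r → ‖r • e‖ = r := fun r hr => by
    rw [norm_smul, he, mul_one, Real.norm_of_nonneg hr]
  obtain ⟨f, hfdef⟩ : ∃ f : ℝ → ℝ, f = fun s => u (s • e) := ⟨_, rfl⟩
  obtain ⟨g, hgdef⟩ : ∃ g : ℝ → ℝ, g = fun s => v (s • e) := ⟨_, rfl⟩
  have hfd : ∀ r, 0 < r → HasDerivAt f (deriv f r) r := fun r hr => by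
    rw [hfdef]; exact (Vale.Agent.P100h3.profile_smooth hs.smooth_u he hr).1
  have hgd : ∀ r, 0 < r → HasDerivAt g (deriv g r) r := fun r hr => by
    rw [hgdef]; exact (Vale.Agent.P100h3.profile_smooth hs.smooth_v he hr).1
  have hfd2 : ∀ r, 0 < r → HasDerivAt (deriv f) (deriv (deriv f) r) r := fun r hr => by
    rw [hfdef]; exact (Vale.Agent.P100h3.profile_smooth hs.smooth_u he hr).2
  have hgd2 : ∀ r, 0 < r → HasDerivAt (deriv g) (deriv (deriv g) r) r := fun r hr => by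
    rw [hgdef]; exact (Vale.Agent.P100h3.profile_smooth hs.smooth_v he hr).2
  have hur : ∀ y, u y = f ‖y‖ := fun y => by
    rw [hfdef]
    exact (hrad y (‖y‖ • e) (hnorm _ (norm_nonneg y)).symm).1
  have hvr : ∀ y, v y = g ‖y‖ := fun y => by
    rw [hgdef]
    exact (hrad y (‖y‖ • e) (hnorm _ (norm_nonneg y)).symm).2
  have hne : ∀ r : ℝ, 0 < r → r • e ≠ 0 := fun r hr => by
    rw [← norm_pos_iff, hnorm r hr.le]; exact hr
  have hode1 : ∀ r, 0 < r → HasDerivAt (deriv f)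
      (- (((n : ℝ) - 1) / r * deriv f r + r ^ A * g r ^ p)) r := by
    intro r hr
    have hx := hne r hr
    have h1 : ContDiffAt ℝ 2 u (r • e) :=
      hs.smooth_u.contDiffAt (isOpen_compl_singleton.mem_nhds hx)
    have h2 := Vale.Agent.P100h3.radial_lap hx h1 hur hfd (by rw [hnorm r hr.le]; exact hfd2 r hr)
    have h3 := hs.eq_u _ hx
    rw [hnorm r hr.le, hfr] at h2
    rw [h2, hnorm r hr.le] at h3
    have h4 : v (r • e) = g r := by rw [hgdef]
    rw [h4] at h3
    have h5 : deriv (deriv f) r = - (((n : ℝ) - 1) / r * deriv f r + r ^ A * g r ^ p) := by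
      linarith
    rw [← h5]
    exact hfd2 r hr
  have hode2 : ∀ r, 0 < r → HasDerivAt (deriv g)
      (- (((n : ℝ) - 1) / r * deriv g r + r ^ B * f r ^ q)) r := by
    intro r hr
    have hx := hne r hr
    have h1 : ContDiffAt ℝ 2 v (r • e) :=
      hs.smooth_v.contDiffAt (isOpen_compl_singleton.mem_nhds hx)
    have h2 := Vale.Agent.P100h3.radial_lap hx h1 hvr hgd (by rw [hnorm r hr.le]; exact hgd2 r hr)
    have h3 := hs.eq_v _ hx
    rw [hnorm r hr.le, hfr] at h2
    rw [h2, hnorm r hr.le] at h3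
    have h4 : u (r • e) = f r := by rw [hfdef]
    rw [h4] at h3
    have h5 : deriv (deriv g) r = - (((n : ℝ) - 1) / r * deriv g r + r ^ B * f r ^ q) := by
      linarith
    rw [← h5]
    exact hgd2 r hr
  have hfc : Continuous f := by
    rw [hfdef]; exact hs.cont_u.comp (continuous_id.smul continuous_const)
  have hgc : Continuous g := by
    rw [hgdef]; exact hs.cont_v.comp (continuous_id.smul continuous_const)
  have hev : ∀ᶠ r in 𝓝 (0 : ℝ), f r < f 0 + 1 ∧ g r < g 0 + 1 :=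
    (hfc.continuousAt.eventually (gt_mem_nhds (lt_add_one (f 0)))).and
      (hgc.continuousAt.eventually (gt_mem_nhds (lt_add_one (g 0))))
  obtain ⟨δ, hδ, hball⟩ := Metric.eventually_nhds_iff.mp hev
  have hdist : ∀ r : ℝ, 0 < r → r < δ → dist r 0 < δ := fun r hr hrδ => by
    rw [Real.dist_eq, sub_zero, abs_of_pos hr]; exact hrδ
  refine Vale.Agent.P100h3.radial_ode hN hA hB hp hq hsub hfd hgd hode1 hode2
    (fun r _ => by rw [hfdef]; exact hs.pos_u _) (fun r _ => by rw [hgdef]; exact hs.pos_v _)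
    (M := max (f 0 + 1) (g 0 + 1)) hδ ?_ ?_
  · intro r hr hrδ
    exact le_trans (hball (hdist r hr hrδ)).1.le (le_max_left _ _)
  · intro r hr hrδ
    exact le_trans (hball (hdist r hr hrδ)).2.le (le_max_right _ _)

/-- Every positive entire solution of the Hénon-Lane-Emden system on `ℝⁿ`, `n ≥ 2`, `p, q > 0`,
`A, B` real, has `n ≥ 3`, `A > -2`, `B > -2`; and if moreover `u, v` are radial, then the
parameters are not subcritical, i.e. `(n + A) / (p + 1) + (n + B) / (q + 1) ≤ n - 2`. -/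
theorem result (n : ℕ) (hn : 2 ≤ n) (p q A B : ℝ) (hp : 0 < p) (hq : 0 < q)
    (u v : EuclideanSpace ℝ (Fin n) → ℝ) (hs : IsPositiveEntireSolution n p q A B u v) :
    3 ≤ n ∧ -2 < A ∧ -2 < B ∧
      ((∀ x y, ‖x‖ = ‖y‖ → u x = u y ∧ v x = v y) →
        ((n : ℝ) + A) / (p + 1) + ((n : ℝ) + B) / (q + 1) ≤ (n : ℝ) - 2) := by
  have h3 : 3 ≤ n := by
    by_contra hcon
    exact WeightBelowMinusTwo.result n hn p q A B hp hq (Or.inl (by omega)) u v hs
  have hA : -2 < A := by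
    by_contra hcon
    exact WeightBelowMinusTwo.result n hn p q A B hp hq (Or.inr (Or.inl (not_lt.mp hcon))) u v hs
  have hB : -2 < B := by
    by_contra hcon
    exact WeightBelowMinusTwo.result n hn p q A B hp hq (Or.inr (Or.inr (not_lt.mp hcon))) u v hs
  refine ⟨h3, hA, hB, fun hrad => ?_⟩
  by_contra hcon
  exact radial_not_subcritical h3 hp hq hA hB hs hrad (not_le.mp hcon)

end Vale.Agent.Results.P100.ARadialAllWeights
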